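import Vale.Agent.P331.Asm

/-! P331: an absolute constant ratio for all finite matroids, one sample per element, almighty
adversary, when the unknown laws of the elements coincide. -/

namespace Vale.Agent.Results.P331.CommonLaw

open MeasureTheory Vale.Agent.P331
open scoped ENNReal NNReal

universe u

theorem result (E : Type u) [DecidableEq E] [Fintype E] (M : Matroid E) :
    ∃ A : OnlineRule M Bool,
      ∀ D : E → Measure ℝ≥0, (∀ e, IsProbabilityMeasure (D e)) → (∀ e f, D e = D f) →
        A.Competitive (1 / 1000) coin D :=
  main_thm M

end Vale.Agent.Results.P331.CommonLaw
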