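import Vale.Agent.P331.KAsm

/-! P331: for every finite matroid ONE rule with one sample per element which, against the
almighty adversary, is `1 / (1056 K ^ 5)`-competitive for all unknown laws whose tails are
pairwise within a factor `K`, simultaneously for all `K`. -/

namespace Vale.Agent.Results.P331.ComparableLaws

open MeasureTheory Vale.Agent.P331
open scoped ENNReal NNReal

universe u

theorem result (E : Type u) [DecidableEq E] [Fintype E] (M : Matroid E) :
    ∃ A : OnlineRule M Bool,
      ∀ K : ℕ, 1 ≤ K → ∀ D : E → Measure ℝ≥0, (∀ e, IsProbabilityMeasure (D e)) →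
        (∀ (e f : E) (t : ℝ≥0), D e (Set.Ioi t) ≤ K * D f (Set.Ioi t)) →
        A.Competitive (1 / (1056 * K ^ 5)) coin D :=
  mainK M

end Vale.Agent.Results.P331.ComparableLaws
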